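import Vale.Agent.Lib.P254.Main
import Vale.Agent.Lib.P254.Final
import Vale.Agent.Lib.P254.Normal
import Vale.Agent.Lib.P254.Affine

/-!
# P254: the simplex is a strict local maximizer of the isotropic constant
-/

open MeasureTheory Set

namespace Vale.Agent.Results.P254.A_local_max

open Vale.Agent.Lib.P254

/-- For every `n ≥ 1` there is `δ ∈ (0, 1)` such that every closed convex set `K` squeezed between
the homothetic copy of the standard simplex `T n` with ratio `1 - δ` about its barycenter and
`T n` itself has isotropic constant at most that of `T n`, and equality forces `K` to be a simplex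
(an invertible affine map sends `K` onto `T n`). -/
theorem result (n : ℕ) (hn : 1 ≤ n) : ∃ δ : ℝ, 0 < δ ∧ δ < 1 ∧ ∀ K : Set (Fin n → ℝ),
    IsClosed K → Convex ℝ K → K ⊆ T n →
    (∀ t ∈ T n, bary n + (1 - δ) • (t - bary n) ∈ K) →
    isoConst K ≤ isoConst (T n) ∧
      (isoConst K = isoConst (T n) →
        ∃ (M : Matrix (Fin n) (Fin n) ℝ) (c : Fin n → ℝ), M.det ≠ 0 ∧
          (fun x => M.mulVec x + c) '' K = T n) := by
  obtain ⟨m, rfl⟩ : ∃ m, n = m + 1 := ⟨n - 1, by omega⟩
  obtain ⟨ε, h0, h1, hmain⟩ := main_ineq m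
  obtain ⟨δ, hδ0, hδ1, hnormal⟩ := normal_form (m + 1) (Nat.succ_pos m) ε h0 h1
  refine ⟨δ, hδ0, hδ1, fun K hc hv hs hi => ?_⟩
  obtain ⟨M, c, hM, hK⟩ := hnormal K hc hv hs hi
  -- the volume of `K` is positive
  have hpos : 0 < volume K := by
    have himg : AffineMap.homothety (bary (m + 1)) (1 - δ) '' (T (m + 1)) ⊆ K := by
      rintro _ ⟨t, ht, rfl⟩
      have h2 := hi t ht
      have e : AffineMap.homothety (bary (m + 1)) (1 - δ) t
          = bary (m + 1) + (1 - δ) • (t - bary (m + 1)) := by
        rw [AffineMap.homothety_apply]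
        simp [add_comm]
      rw [e]
      exact h2
    have h2 := Measure.addHaar_image_homothety (volume : Measure (Fin (m + 1) → ℝ))
      (bary (m + 1)) (1 - δ) (T (m + 1))
    have h3 : 0 < volume (T (m + 1)) :=
      (ENNReal.toReal_pos_iff.mp (vol_T_pos (m + 1))).1
    have h4 : 0 < volume (AffineMap.homothety (bary (m + 1)) (1 - δ) '' (T (m + 1))) := by
      rw [h2]
      refine ENNReal.mul_pos ?_ h3.ne'
      have h5 : 0 < 1 - δ := by linarith
      have : 0 < |(1 - δ) ^ Module.finrank ℝ (Fin (m + 1) → ℝ)| := abs_pos.mpr (by positivity)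
      exact (ENNReal.ofReal_pos.mpr this).ne'
    exact lt_of_lt_of_le h4 (measure_mono himg)
  have hbd : Bornology.IsBounded K := (isCompact_T (m + 1)).isBounded.subset hs
  have haff := iso_affine M c hM K hc.measurableSet hbd hpos
  have hfin := final_of_main m ε h0 h1 _ hK (hmain _ hK)
  rw [haff] at hfin
  exact ⟨hfin.1, fun h => ⟨M, c, hM, hfin.2 h⟩⟩

end Vale.Agent.Results.P254.A_local_max
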