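import Vale.Agent.Lib.P254.Main
import Vale.Agent.Lib.P254.Final

/-!
# P254: the simplex is a strict local maximizer of the isotropic constant (normal position)
-/

open MeasureTheory Set

namespace Vale.Agent.Results.P254.A_normal_position

open Vale.Agent.Lib.P254

/-- For every `n ≥ 1` there is `ε ∈ (0, 1)` such that every closed convex set `K` inside the
standard simplex `T n`, containing the centroids of all facets of `T n` and the homothetic copy of
`T n` with ratio `1 - ε` about its barycenter, has isotropic constant at most that of `T n`, with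
equality only for `K = T n`. -/
theorem result (n : ℕ) (hn : 1 ≤ n) : ∃ ε : ℝ, 0 < ε ∧ ε < 1 ∧ ∀ K : Set (Fin n → ℝ),
    IsClosed K → Convex ℝ K → K ⊆ T n →
    (∀ i, facetCentroid n i ∈ K) →
    (∀ t ∈ T n, bary n + (1 - ε) • (t - bary n) ∈ K) →
    isoConst K ≤ isoConst (T n) ∧ (isoConst K = isoConst (T n) → K = T n) := by
  obtain ⟨m, rfl⟩ : ∃ m, n = m + 1 := ⟨n - 1, by omega⟩
  obtain ⟨ε, h0, h1, h⟩ := main_ineq m
  refine ⟨ε, h0, h1, fun K hc hv hs hf hi => ?_⟩
  have hK : NearSimplex ε K := ⟨hc, hv, hs, hf, hi⟩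
  exact final_of_main m ε h0 h1 K hK (h K hK)

end Vale.Agent.Results.P254.A_normal_position
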